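import Mathlib
import Crest.Prelude.Def_TruncExpWeight

/-!
Shared definitions for the team proof of S0423 (owner: helper7).

Probabilistic reading: `X_i` iid `Exp(1)`, `S = ∑ a_i X_i`, `K t = P(S > t)` (survival function).
* `ind0` is the survival function of the constant `0`.
* `stepS a K` is the survival function of `S + a X`.
* `needle a b` is the survival function of `-b + a X` (`a > 0`).
* `gw` is the density of `Gamma(2)`; `truncExpWeight y = P(Gamma_2 ≥ y) = ∫_{t ≥ y} gw t dt`.
* `E truncExpWeight (4/3 + S) = 1 - Jw K`, so the upper bound of S0423 is `tau ≤ Jw K`.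
-/

set_option autoImplicit false

namespace Crest.Agent.Helper7

open MeasureTheory Set

/-- indicator of the negative half line (survival function of the constant `0`). -/
noncomputable def ind0 (t : ℝ) : ℝ := if t < 0 then 1 else 0

/-- Gamma(2) density: `gw y = y * exp (-y)` for `y > 0`, and `0` for `y ≤ 0`. -/
noncomputable def gw (y : ℝ) : ℝ := if y ≤ 0 then 0 else y * Real.exp (-y)

/-- `tau = (4/9) e^{-1/3}`; the upper bound of S0423 is `E g ≤ 1 - tau`. -/
noncomputable def tau : ℝ := 4 / 9 * Real.exp (-(1 / 3))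

/-- One exponential step on survival functions:
`(stepS a K) u = ∫_{x>0} K (u - a x) e^{-x} dx`. -/
noncomputable def stepS (a : ℝ) (K : ℝ → ℝ) (u : ℝ) : ℝ :=
  ∫ x in Ioi (0 : ℝ), K (u - a * x) * Real.exp (-x)

/-- The needle: survival function of `-b + a X`, i.e. `min 1 (exp (-(t+b)/a))`. -/
noncomputable def needle (a b : ℝ) (t : ℝ) : ℝ := min 1 (Real.exp (-(t + b) / a))

/-- The class of kernels (survival functions) preserved by the exponential steps. -/
structure IsSurv (K : ℝ → ℝ) : Prop where
  cont : Continuous K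
  pos : ∀ t, 0 < K t
  le_one : ∀ t, K t ≤ 1
  anti : Antitone K
  logconc : ConcaveOn ℝ Set.univ (fun t => Real.log (K t))
  integrable : Integrable (fun t => K t - ind0 t)

/-- "Mean" of a survival function: `∫ (K - 1_{t<0})`. -/
noncomputable def smean (K : ℝ → ℝ) : ℝ := ∫ t, (K t - ind0 t)

/-- `Jw K = ∫ gw (t + 4/3) K t dt`. -/
noncomputable def Jw (K : ℝ → ℝ) : ℝ := ∫ t, gw (t + 4 / 3) * K t

/-- `Ffun K s = 1 - ∫ gw (t + 4/3) K (t - s) dt` (so `Ffun K 0 = 1 - Jw K`). -/
noncomputable def Ffun (K : ℝ → ℝ) (s : ℝ) : ℝ := 1 - ∫ t, gw (t + 4 / 3) * K (t - s)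

end Crest.Agent.Helper7
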