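import Crest.Agent.Helper7.S0423Defs
import Crest.Agent.Helper4.ExpLaw

/-! Basic facts for S0423: the Gamma(2) density `gw`, the base identities
`Ffun ind0 = truncExpWeight (4/3 + ·)`, `stepS p ind0 = needle p 0`, and the Fubini link
`∫ Ffun K (s + a x) e^{-x} dx = Ffun (stepS a K) s`. -/

set_option autoImplicit false

namespace Crest.Agent.Helper7

open MeasureTheory Set Filter Topology Crest.AlgGeometry

lemma gw_eq (y : ℝ) : gw y = max y 0 * Real.exp (-(max y 0)) := by
  unfold gw
  split_ifs with h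
  · simp [max_eq_right h]
  · push Not at h; simp [max_eq_left h.le]

lemma gw_nonneg (y : ℝ) : 0 ≤ gw y := by
  rw [gw_eq]; positivity

lemma gw_of_nonpos {y : ℝ} (h : y ≤ 0) : gw y = 0 := by simp [gw, h]

lemma gw_of_pos {y : ℝ} (h : 0 < y) : gw y = y * Real.exp (-y) := by simp [gw, not_le.mpr h]

lemma continuous_gw : Continuous gw := by
  have : gw = fun y => max y 0 * Real.exp (-(max y 0)) := funext gw_eq
  rw [this]; fun_prop

lemma measurable_gw : Measurable gw := continuous_gw.measurable

lemma gw_le (y : ℝ) : gw y ≤ Real.exp (-1) := by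
  rw [gw_eq]
  set z := max y 0
  have h := Real.add_one_le_exp (z - 1)
  have hz : z ≤ Real.exp (z - 1) := by linarith
  calc z * Real.exp (-z) ≤ Real.exp (z - 1) * Real.exp (-z) := by gcongr
    _ = Real.exp (-1) := by rw [← Real.exp_add]; ring_nf

lemma hasDerivAt_gwPrim (y : ℝ) :
    HasDerivAt (fun y : ℝ => -(1 + y) * Real.exp (-y)) (y * Real.exp (-y)) y := by
  have h1 : HasDerivAt (fun y : ℝ => -(1 + y)) (-1) y :=
    ((hasDerivAt_id' y).const_add 1).neg
  have h2 : HasDerivAt (fun y : ℝ => Real.exp (-y)) (Real.exp (-y) * -1) y :=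
    (hasDerivAt_neg' y).exp
  exact (h1.mul h2).congr_deriv (by ring)

lemma tendsto_gwPrim : Tendsto (fun y : ℝ => -(1 + y) * Real.exp (-y)) atTop (𝓝 0) := by
  have h0 := Real.tendsto_pow_mul_exp_neg_atTop_nhds_zero 0
  have h1 := Real.tendsto_pow_mul_exp_neg_atTop_nhds_zero 1
  have := (h0.add h1).neg
  simp only [pow_zero, one_mul, pow_one, add_zero, neg_zero] at this
  refine this.congr (fun y => ?_)
  ring

lemma integrableOn_gw_Ioi : IntegrableOn gw (Ioi 0) := by
  have : IntegrableOn (fun y : ℝ => y * Real.exp (-y)) (Ioi 0) :=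
    integrableOn_Ioi_deriv_of_nonneg' (fun x _ => hasDerivAt_gwPrim x)
      (fun x hx => by have : (0:ℝ) < x := hx; positivity) tendsto_gwPrim
  refine this.congr_fun (fun y hy => ?_) measurableSet_Ioi
  exact (gw_of_pos hy).symm

lemma integrable_gw : Integrable gw := by
  have h2 : IntegrableOn gw (Iic 0) := by
    have : IntegrableOn (fun _ : ℝ => (0:ℝ)) (Iic 0) := integrableOn_zero
    refine this.congr_fun (fun y hy => ?_) measurableSet_Iic
    exact (gw_of_nonpos hy).symm
  have := h2.union integrableOn_gw_Ioi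
  rwa [Iic_union_Ioi, integrableOn_univ] at this

lemma integral_gw_Ioi_of_nonneg (c : ℝ) (hc : 0 ≤ c) :
    ∫ y in Ioi c, gw y = (1 + c) * Real.exp (-c) := by
  have h1 : ∫ y in Ioi c, gw y = ∫ y in Ioi c, y * Real.exp (-y) := by
    refine setIntegral_congr_fun measurableSet_Ioi (fun y hy => ?_)
    exact gw_of_pos (lt_of_le_of_lt hc hy)
  rw [h1, integral_Ioi_of_hasDerivAt_of_nonneg' (fun x _ => hasDerivAt_gwPrim x) (fun x hx => ?_)
    tendsto_gwPrim]
  · ring
  · have : 0 < x := lt_of_le_of_lt hc hx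
    positivity

lemma integral_gw_Ioi (c : ℝ) : ∫ y in Ioi c, gw y = truncExpWeight c := by
  unfold truncExpWeight
  split_ifs with h
  · have h2 : ∫ y in Ioi c, gw y = ∫ y in Ioi 0, gw y := by
      rw [← Ioc_union_Ioi_eq_Ioi h, setIntegral_union (Ioc_disjoint_Ioi le_rfl) measurableSet_Ioi
        integrable_gw.integrableOn integrable_gw.integrableOn]
      have h3 : ∫ y in Ioc c 0, gw y = 0 := by
        rw [setIntegral_congr_fun measurableSet_Ioc (g := fun _ => 0)
          (fun y hy => gw_of_nonpos hy.2)]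
        simp
      rw [h3, zero_add]
    rw [h2, integral_gw_Ioi_of_nonneg 0 le_rfl]; simp
  · push Not at h
    exact integral_gw_Ioi_of_nonneg c h.le

lemma integral_gw : ∫ y, gw y = 1 := by
  have h := integral_add_compl (measurableSet_Ioi (a := (0:ℝ))) integrable_gw
  rw [compl_Ioi] at h
  have h3 : ∫ y in Iic (0:ℝ), gw y = 0 := by
    rw [setIntegral_congr_fun measurableSet_Iic (g := fun _ => 0)
      (fun y hy => gw_of_nonpos hy)]
    simp
  rw [h3, integral_gw_Ioi_of_nonneg 0 le_rfl] at h
  rw [← h]; simp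

lemma integral_gw_Iio (c : ℝ) : ∫ y in Iio c, gw y = 1 - truncExpWeight c := by
  have h := integral_add_compl (measurableSet_Iio (a := c)) integrable_gw
  rw [compl_Iio, integral_Ici_eq_integral_Ioi, integral_gw_Ioi, integral_gw] at h
  linarith

lemma integrable_gw_shift (c : ℝ) : Integrable (fun t => gw (t + c)) :=
  integrable_gw.comp_add_right c

lemma integral_gw_shift (c : ℝ) : ∫ t, gw (t + c) = 1 := by
  rw [integral_add_right_eq_self (μ := volume) gw c, integral_gw]

lemma measurable_ind0 : Measurable ind0 := by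
  unfold ind0
  exact Measurable.ite measurableSet_Iio measurable_const measurable_const

lemma ind0_nonneg (t : ℝ) : 0 ≤ ind0 t := by unfold ind0; split_ifs <;> norm_num

lemma ind0_le_one (t : ℝ) : ind0 t ≤ 1 := by unfold ind0; split_ifs <;> norm_num

/-- Base identity: `Ffun ind0 s = truncExpWeight (4/3 + s)`. -/
theorem Ffun_ind0 (s : ℝ) : Ffun ind0 s = truncExpWeight (4 / 3 + s) := by
  unfold Ffun
  have h1 : ∫ t, gw (t + 4 / 3) * ind0 (t - s) = ∫ v, gw v * ind0 (v - 4 / 3 - s) := by
    have := integral_add_right_eq_self (μ := volume) (fun v => gw v * ind0 (v - 4 / 3 - s)) (4 / 3)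
    rw [← this]
    congr 1; ext t; congr 2; ring
  have h2 : ∫ v, gw v * ind0 (v - 4 / 3 - s) = ∫ v in Iio (4 / 3 + s), gw v := by
    rw [← integral_indicator measurableSet_Iio]
    congr 1; ext v
    by_cases hv : v < 4 / 3 + s
    · have : v - 4 / 3 - s < 0 := by linarith
      simp [ind0, hv, this]
    · have : ¬ (v - 4 / 3 - s < 0) := by linarith
      simp [ind0, hv, this]
  rw [h1, h2, integral_gw_Iio]; ring

/-- First step from the indicator: `stepS p ind0 = needle p 0` for `p > 0`. -/
theorem stepS_ind0 (p : ℝ) (hp : 0 < p) : stepS p ind0 = needle p 0 := by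
  ext u
  unfold stepS needle
  have h1 : ∫ x in Ioi (0:ℝ), ind0 (u - p * x) * Real.exp (-x) =
      ∫ x in Ioi (max 0 (u / p)), Real.exp (-x) := by
    rw [← integral_indicator measurableSet_Ioi, ← integral_indicator measurableSet_Ioi]
    congr 1; ext x
    simp only [indicator, mem_Ioi, max_lt_iff]
    by_cases hx : 0 < x
    · by_cases hux : u / p < x
      · have : u - p * x < 0 := by rw [div_lt_iff₀ hp] at hux; linarith
        simp [ind0, hx, hux, this]
      · have : ¬ (u - p * x < 0) := by rw [div_lt_iff₀ hp] at hux; linarith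
        simp [ind0, hx, hux, this]
    · simp [hx]
  rw [h1, integral_exp_neg_Ioi]
  have e1 : -(u + 0) / p = -(u / p) := by ring
  rcases le_total 0 (u / p) with h | h
  · rw [max_eq_right h, min_eq_right, e1]
    rw [Real.exp_le_one_iff, e1]; linarith
  · rw [max_eq_left h, min_eq_left]
    · simp
    · rw [Real.one_le_exp_iff, e1]; linarith

/-- Integrability of `t ↦ gw (t + 4/3) * K (t - s)` for measurable `0 ≤ K ≤ 1`. -/
lemma integrable_gw_mul (K : ℝ → ℝ) (hK : Measurable K) (h0 : ∀ t, 0 ≤ K t)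
    (h1 : ∀ t, K t ≤ 1) (s : ℝ) : Integrable (fun t => gw (t + 4 / 3) * K (t - s)) := by
  refine (integrable_gw_shift (4 / 3)).mono' ?_ (Filter.Eventually.of_forall fun t => ?_)
  · exact ((measurable_gw.comp (by fun_prop)).mul (hK.comp (by fun_prop))).aestronglyMeasurable
  · rw [Real.norm_eq_abs, abs_of_nonneg (mul_nonneg (gw_nonneg _) (h0 _))]
    exact mul_le_of_le_one_right (gw_nonneg _) (h1 _)

lemma Ffun_mem_Icc (K : ℝ → ℝ) (hK : Measurable K) (h0 : ∀ t, 0 ≤ K t)
    (h1 : ∀ t, K t ≤ 1) (s : ℝ) : 0 ≤ Ffun K s ∧ Ffun K s ≤ 1 := by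
  unfold Ffun
  have hint := integrable_gw_mul K hK h0 h1 s
  have hle : ∫ t, gw (t + 4 / 3) * K (t - s) ≤ 1 := by
    rw [← integral_gw_shift (4 / 3)]
    exact integral_mono hint (integrable_gw_shift _)
      (fun t => mul_le_of_le_one_right (gw_nonneg _) (h1 _))
  have hge : 0 ≤ ∫ t, gw (t + 4 / 3) * K (t - s) :=
    integral_nonneg (fun t => mul_nonneg (gw_nonneg _) (h0 _))
  constructor <;> linarith

lemma measurable_Ffun (K : ℝ → ℝ) (hK : Measurable K) : Measurable (Ffun K) := by
  unfold Ffun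
  refine measurable_const.sub ?_
  have hm : Measurable (Function.uncurry fun s t : ℝ => gw (t + 4 / 3) * K (t - s)) :=
    (measurable_gw.comp (by fun_prop)).mul (hK.comp (by fun_prop))
  exact (hm.stronglyMeasurable.integral_prod_right (ν := volume)).measurable

lemma stepS_eq_integral_expLaw (a : ℝ) (K : ℝ → ℝ) (u : ℝ) :
    stepS a K u = ∫ x, K (u - a * x) ∂Helper4.expLaw := by
  rw [Helper4.integral_expLaw]; rfl

/-- Fubini link: one exponential average of `Ffun K` is `Ffun (stepS a K)`. -/
theorem Ffun_step (K : ℝ → ℝ) (hK : Measurable K) (h0 : ∀ t, 0 ≤ K t) (h1 : ∀ t, K t ≤ 1)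
    (a s : ℝ) :
    ∫ x in Ioi (0 : ℝ), Ffun K (s + a * x) * Real.exp (-x) = Ffun (stepS a K) s := by
  rw [← Helper4.integral_expLaw]
  unfold Ffun
  set f : ℝ → ℝ → ℝ := fun x t => gw (t + 4 / 3) * K (t - (s + a * x)) with hf
  have hmeas : Measurable (Function.uncurry f) :=
    (measurable_gw.comp (by fun_prop)).mul (hK.comp (by fun_prop))
  have hint : Integrable (Function.uncurry f) (Helper4.expLaw.prod volume) := by
    have hdom : Integrable (fun z : ℝ × ℝ => (1:ℝ) * gw (z.2 + 4 / 3))
        (Helper4.expLaw.prod volume) :=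
      Integrable.mul_prod (integrable_const (1:ℝ)) (integrable_gw_shift (4 / 3))
    refine hdom.mono' hmeas.aestronglyMeasurable (Filter.Eventually.of_forall fun z => ?_)
    simp only [Function.uncurry, hf, one_mul]
    rw [Real.norm_eq_abs, abs_of_nonneg (mul_nonneg (gw_nonneg _) (h0 _))]
    exact mul_le_of_le_one_right (gw_nonneg _) (h1 _)
  have hint1 : Integrable (fun x => ∫ t, f x t) Helper4.expLaw := hint.integral_prod_left
  have e1 : ∫ x, (1 - ∫ t, f x t) ∂Helper4.expLaw =
      1 - ∫ x, (∫ t, f x t) ∂Helper4.expLaw := by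
    rw [integral_sub (integrable_const (1:ℝ)) hint1]
    simp
  rw [e1, integral_integral_swap hint]
  congr 1
  refine integral_congr_ae (Filter.Eventually.of_forall fun t => ?_)
  simp only [hf]
  rw [integral_const_mul, stepS_eq_integral_expLaw]
  congr 2
  funext x
  congr 1; ring

end Crest.Agent.Helper7
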