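import Crest.Agent.Helper7.S0423Defs
import Crest.Agent.Lead.LevelSet

/-! End game of the abstract 1-D theorem (package C): the IVT / contradiction wrapper. -/

set_option autoImplicit false

namespace Crest.Agent.Helper7

open Set

/-- If a continuous, bounded "needle mean" `m k` (`k > 1`) satisfies the per-level inequality
`tau - e⁻¹ * max 0 (-(m k)) - lam k * m k ≤ J`, then `tau ≤ J`. -/
theorem endgame (J : ℝ) (m : ℝ → ℝ) (M : ℝ) (hM : 0 < M)
    (hcont : ContinuousOn m (Ioi 1))
    (hbound : ∀ k, 1 < k → |m k| ≤ M)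
    (hper : ∀ k, 1 < k → tau - Real.exp (-1) * max 0 (-(m k)) - Lead.lam k * m k ≤ J) :
    tau ≤ J := by
  by_contra hcon
  push Not at hcon
  set δ := tau - J with hδ
  have hδpos : 0 < δ := by linarith
  set ε := δ / M with hε
  have hεpos : 0 < ε := div_pos hδpos hM
  have hεM : ε * M = δ := by rw [hε]; field_simp
  -- large k: the mean must be negative
  set khi := max 2 (4 / ε ^ 2) with hkhi
  have hkhi1 : 1 < khi := lt_of_lt_of_le (by norm_num) (le_max_left _ _)
  have hlamhi : Lead.lam khi < ε := Lead.lam_lt_of_large hεpos hkhi1 (le_max_right _ _)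
  have hmhi : m khi < 0 := by
    by_contra h
    push Not at h
    have h1 := hper khi hkhi1
    rw [max_eq_left (by linarith)] at h1
    have hmM := (abs_le.mp (hbound khi hkhi1)).2
    have hl := Lead.lam_pos hkhi1
    have h2 : Lead.lam khi * m khi ≤ Lead.lam khi * M := by gcongr
    have h3 : Lead.lam khi * M < ε * M := by gcongr
    linarith
  -- k near 1: the mean must be positive
  set klo := 1 + ε with hklo
  have hklo1 : 1 < klo := by linarith
  have hlamlo : Real.exp (-1) - ε < Lead.lam klo := Lead.lam_gt_of_near_one hklo1 le_rfl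
  have hmlo : 0 < m klo := by
    by_contra h
    push Not at h
    have h1 := hper klo hklo1
    rw [max_eq_right (by linarith)] at h1
    have hmM := (abs_le.mp (hbound klo hklo1)).1
    have hl : Lead.lam klo ≤ Real.exp (-1) := Lead.lam_le
    have h2 : (Real.exp (-1) - Lead.lam klo) * (-(m klo)) ≤ (Real.exp (-1) - Lead.lam klo) * M := by
      apply mul_le_mul_of_nonneg_left (by linarith) (by linarith)
    have h3 : (Real.exp (-1) - Lead.lam klo) * M < ε * M := by
      apply mul_lt_mul_of_pos_right (by linarith) hM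
    linarith
  -- intermediate value
  have hsub : uIcc klo khi ⊆ Ioi 1 := by
    intro x hx
    rw [mem_uIcc] at hx
    rcases hx with ⟨h1, _⟩ | ⟨h1, _⟩
    · exact lt_of_lt_of_le hklo1 h1
    · exact lt_of_lt_of_le hkhi1 h1
  have hivt := intermediate_value_uIcc (hcont.mono hsub)
  have h0 : (0:ℝ) ∈ uIcc (m klo) (m khi) := by
    rw [mem_uIcc]; right; exact ⟨hmhi.le, hmlo.le⟩
  obtain ⟨k0, hk0, hm0⟩ := hivt h0
  have h1 := hper k0 (hsub hk0)
  rw [hm0] at h1
  simp at h1
  linarith

end Crest.Agent.Helper7
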