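import Crest.Agent.Helper7.S0423Basic

/-! Orthant peeling and the induction for the upper bound of S0423 (package A).
The analytic inputs (packages B, C, D) enter `upper_bound` as hypotheses. -/

set_option autoImplicit false

namespace Crest.Agent.Helper7

open MeasureTheory Set Filter Topology Crest.AlgGeometry

/-- The product exponential law on `Fin N → ℝ`. -/
noncomputable abbrev piExp (N : ℕ) : Measure (Fin N → ℝ) :=
  Measure.pi fun _ : Fin N => Helper4.expLaw

theorem pi_peel (F : ℝ → ℝ) (hF : Measurable F) (hb : ∀ s, |F s| ≤ 1) (N : ℕ)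
    (a : Fin (N + 1) → ℝ) (i : Fin (N + 1)) :
    ∫ x, F (∑ j, a j * x j) ∂(piExp (N + 1)) =
      ∫ x, (∫ y, F ((∑ j, a (i.succAbove j) * x j) + a i * y) ∂Helper4.expLaw) ∂(piExp N) := by
  have mp := measurePreserving_piFinSuccAbove (α := fun _ : Fin (N + 1) => ℝ)
    (fun _ => Helper4.expLaw) i
  set g : ℝ × (Fin N → ℝ) → ℝ :=
    fun p => F ((∑ j, a (i.succAbove j) * p.2 j) + a i * p.1) with hg
  have hgm : Measurable g := hF.comp (by fun_prop)
  have hgi : Integrable g (Helper4.expLaw.prod (piExp N)) := by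
    refine Integrable.of_bound hgm.aestronglyMeasurable 1 (Filter.Eventually.of_forall fun p => ?_)
    rw [Real.norm_eq_abs]; exact hb _
  have h1 : ∫ x, F (∑ j, a j * x j) ∂(piExp (N + 1)) =
      ∫ p, g p ∂(Helper4.expLaw.prod (piExp N)) := by
    rw [← mp.integral_comp']
    congr 1; ext x
    have : (MeasurableEquiv.piFinSuccAbove (fun _ : Fin (N + 1) => ℝ) i) x =
        (x i, fun j => x (i.succAbove j)) := rfl
    rw [this, hg]
    simp only
    rw [Fin.sum_univ_succAbove _ i]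
    ring_nf
  rw [h1, integral_prod_symm g hgi]

theorem Ffun_peel (K : ℝ → ℝ) (hK : Measurable K) (h0 : ∀ t, 0 ≤ K t) (h1 : ∀ t, K t ≤ 1)
    (N : ℕ) (a : Fin (N + 1) → ℝ) (i : Fin (N + 1)) :
    ∫ x, Ffun K (∑ j, a j * x j) ∂(piExp (N + 1)) =
      ∫ x, Ffun (stepS (a i) K) (∑ j, a (i.succAbove j) * x j) ∂(piExp N) := by
  rw [pi_peel (Ffun K) (measurable_Ffun K hK) (fun s => ?_) N a i]
  · refine integral_congr_ae (Filter.Eventually.of_forall fun x => ?_)
    simp only
    rw [Helper4.integral_expLaw, Ffun_step K hK h0 h1]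
  · have := Ffun_mem_Icc K hK h0 h1 s
    rw [abs_le]; constructor <;> linarith [this.1, this.2]

theorem upper_main_pi
    (hstep : ∀ {K : ℝ → ℝ}, IsSurv K → ∀ a : ℝ, IsSurv (stepS a K))
    (hmean : ∀ {K : ℝ → ℝ}, IsSurv K → ∀ a : ℝ, smean (stepS a K) = smean K + a)
    (hneg : ∀ {K : ℝ → ℝ}, IsSurv K → ∀ {a : ℝ}, a < 0 → ∀ t, stepS a K t < 1)
    (hlt : ∀ {K : ℝ → ℝ}, IsSurv K → ∀ a : ℝ, (∀ t, K t < 1) → ∀ t, stepS a K t < 1)
    (hC : ∀ {K : ℝ → ℝ}, IsSurv K → (∀ t, K t < 1) → smean K = 0 → tau ≤ Jw K) :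
    ∀ (N : ℕ) (a : Fin N → ℝ) (K : ℝ → ℝ), IsSurv K →
      smean K + ∑ i, a i = 0 → ((∃ i, a i < 0) ∨ ∀ t, K t < 1) →
      ∫ x, Ffun K (∑ i, a i * x i) ∂(piExp N) ≤ 1 - tau := by
  intro N
  induction N with
  | zero =>
    intro a K hK hm hflag
    have hK1 : ∀ t, K t < 1 := by
      rcases hflag with ⟨i, _⟩ | h
      · exact i.elim0
      · exact h
    have hm0 : smean K = 0 := by simpa using hm
    have hF : Ffun K 0 = 1 - Jw K := by unfold Ffun Jw; simp
    rw [integral_unique]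
    simp only [Finset.univ_eq_empty, Finset.sum_empty, probReal_univ, one_smul]
    rw [hF]
    linarith [hC hK hK1 hm0]
  | succ N ih =>
    intro a K hK hm hflag
    rw [Ffun_peel K hK.cont.measurable (fun t => (hK.pos t).le) hK.le_one N a 0]
    apply ih
    · exact hstep hK (a 0)
    · rw [hmean hK, ← hm, Fin.sum_univ_succ]
      simp only [Fin.succAbove_zero]
      ring
    · rcases hflag with ⟨i, hi⟩ | h
      · rcases Fin.eq_zero_or_eq_succ i with rfl | ⟨j, rfl⟩
        · right; exact hneg hK hi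
        · left; exact ⟨j, by simpa [Fin.succAbove_zero] using hi⟩
      · right; exact hlt hK (a 0) h

lemma truncExpWeight_four_thirds_le : truncExpWeight (4 / 3) ≤ 1 - tau := by
  unfold truncExpWeight tau
  rw [if_neg (by norm_num)]
  -- q = e^{-1/3} ≤ 18/25
  have hq : Real.exp (-(1 / 3)) ≤ 18 / 25 := by
    have h := Real.quadratic_le_exp_of_nonneg (x := (1:ℝ) / 3) (by norm_num)
    rw [Real.exp_neg, inv_le_comm₀ (Real.exp_pos _) (by norm_num)]
    norm_num at h ⊢
    linarith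
  have hq0 : 0 < Real.exp (-(1 / 3)) := Real.exp_pos _
  have h4 : Real.exp (-(4 / 3)) = Real.exp (-(1 / 3)) ^ 4 := by
    rw [← Real.exp_nat_mul]; congr 1; norm_num
  rw [h4]
  set q := Real.exp (-(1 / 3))
  have hq2 : q ^ 4 ≤ (18 / 25) ^ 4 := by gcongr
  nlinarith

theorem upper_bound
    (hstep : ∀ {K : ℝ → ℝ}, IsSurv K → ∀ a : ℝ, IsSurv (stepS a K))
    (hmean : ∀ {K : ℝ → ℝ}, IsSurv K → ∀ a : ℝ, smean (stepS a K) = smean K + a)
    (hneg : ∀ {K : ℝ → ℝ}, IsSurv K → ∀ {a : ℝ}, a < 0 → ∀ t, stepS a K t < 1)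
    (hlt : ∀ {K : ℝ → ℝ}, IsSurv K → ∀ a : ℝ, (∀ t, K t < 1) → ∀ t, stepS a K t < 1)
    (hC : ∀ {K : ℝ → ℝ}, IsSurv K → (∀ t, K t < 1) → smean K = 0 → tau ≤ Jw K)
    (hN : ∀ p : ℝ, 0 < p → IsSurv (needle p 0))
    (hNm : ∀ p : ℝ, 0 < p → smean (needle p 0) = p)
    (N : ℕ) (a : Fin N → ℝ) (hsum : ∑ i, a i = 0) :
    ∫ x in Set.pi Set.univ (fun _ : Fin N => Set.Ioi (0 : ℝ)),
        truncExpWeight (4 / 3 + ∑ i, a i * x i) * Real.exp (-∑ i, x i) ≤ 1 - tau := by
  rw [Helper4.setIntegral_pi_Ioi_eq_integral_piExp N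
    (fun x => truncExpWeight (4 / 3 + ∑ i, a i * x i))]
  by_cases hall : ∀ i, a i = 0
  · have : ∀ x : Fin N → ℝ, truncExpWeight (4 / 3 + ∑ i, a i * x i) = truncExpWeight (4 / 3) := by
      intro x; simp [hall]
    simp only [this, integral_const, probReal_univ, one_smul]
    exact truncExpWeight_four_thirds_le
  · -- there is a positive coefficient
    have hpos : ∃ p, 0 < a p := by
      by_contra hcon
      push Not at hcon
      apply hall
      intro i
      exact (Finset.sum_eq_zero_iff_of_nonpos (fun j _ => hcon j)).mp hsum i (Finset.mem_univ i)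
    obtain ⟨p, hp⟩ := hpos
    obtain ⟨M, rfl⟩ : ∃ M, N = M + 1 := by
      cases N with
      | zero => exact p.elim0
      | succ M => exact ⟨M, rfl⟩
    have e1 : ∀ x : Fin (M + 1) → ℝ, truncExpWeight (4 / 3 + ∑ i, a i * x i) =
        Ffun ind0 (∑ i, a i * x i) := fun x => (Ffun_ind0 _).symm
    simp only [e1]
    rw [Ffun_peel ind0 measurable_ind0 ind0_nonneg ind0_le_one M a p, stepS_ind0 (a p) hp]
    have hsum' : a p + ∑ j, a (p.succAbove j) = 0 := by
      rw [← Fin.sum_univ_succAbove]; exact hsum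
    apply upper_main_pi hstep hmean hneg hlt hC M (fun j => a (p.succAbove j)) (needle (a p) 0)
      (hN _ hp)
    · rw [hNm _ hp]; exact hsum'
    · left
      by_contra hcon
      push Not at hcon
      have : 0 ≤ ∑ j, a (p.succAbove j) := Finset.sum_nonneg (fun j _ => hcon j)
      linarith

end Crest.Agent.Helper7
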