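import Crest.Agent.Helper7.S0423Defs
import Crest.Agent.Helper9.LogConc
import Crest.Agent.Helper9.MeanStep

/-! Remaining fields of package B (insurance copy by helper7): antitonicity of `stepS a K`,
the two `< 1` lemmas and the bundled `IsSurv (stepS a K)`. -/

set_option autoImplicit false

namespace Crest.Agent.Helper7

open MeasureTheory Set

theorem antitone_step {K : ℝ → ℝ} (hK : IsSurv K) (a : ℝ) : Antitone (stepS a K) := by
  intro u v huv
  unfold stepS
  have h0 : ∀ t, 0 ≤ K t := fun t => (hK.pos t).le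
  refine setIntegral_mono_on (Helper9.integrableOn_step hK.cont.measurable h0 hK.le_one a v)
    (Helper9.integrableOn_step hK.cont.measurable h0 hK.le_one a u) measurableSet_Ioi
    (fun x _ => ?_)
  have h := hK.anti (show u - a * x ≤ v - a * x by linarith)
  exact mul_le_mul_of_nonneg_right h (Real.exp_pos _).le

theorem isSurv_step {K : ℝ → ℝ} (hK : IsSurv K) (a : ℝ) : IsSurv (stepS a K) :=
  ⟨Helper9.cont_step hK a, Helper9.pos_step hK a, Helper9.le_one_step hK a, antitone_step hK a,
    Helper9.logconc_step hK a, Helper9.integrable_step_sub_ind0 hK a⟩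

theorem step_lt_one {K : ℝ → ℝ} (hK : IsSurv K) (a : ℝ) (h : ∀ t, K t < 1) (t : ℝ) :
    stepS a K t < 1 := by
  have h0 : ∀ t, 0 ≤ K t := fun t => (hK.pos t).le
  have hm : Measurable (fun s => 1 - K s) := measurable_const.sub hK.cont.measurable
  have hpos := Helper9.stepS_pos hm (fun s => by linarith [h s]) (fun s => by linarith [h0 s]) a t
  have hlin : stepS a (fun s => 1 - K s) t = 1 - stepS a K t := by
    unfold stepS
    have hexp : IntegrableOn (fun x : ℝ => Real.exp (-x)) (Ioi (0:ℝ)) :=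
      integrableOn_exp_neg_Ioi 0
    have hint := Helper9.integrableOn_step hK.cont.measurable h0 hK.le_one a t
    have e1 : ∫ x in Ioi (0:ℝ), (1 - K (t - a * x)) * Real.exp (-x) =
        (∫ x in Ioi (0:ℝ), Real.exp (-x)) - ∫ x in Ioi (0:ℝ), K (t - a * x) * Real.exp (-x) := by
      rw [← integral_sub hexp hint]
      congr 1; ext x; ring
    rw [e1, integral_exp_neg_Ioi_zero]
  linarith

theorem exists_lt_one {K : ℝ → ℝ} (hK : IsSurv K) : ∃ y, K y < 1 := by
  by_contra hcon
  push Not at hcon
  have hint : IntegrableOn (fun _ : ℝ => (1:ℝ)) (Ioi 0) := by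
    refine (hK.integrable.integrableOn (s := Ioi 0)).congr_fun (fun t ht => ?_) measurableSet_Ioi
    have ht0 : ¬ t < 0 := not_lt.mpr (le_of_lt ht)
    have : K t = 1 := le_antisymm (hK.le_one t) (hcon t)
    simp [ind0, ht0, this]
  rw [integrableOn_const_iff] at hint
  rcases hint with h | h
  · simp at h
  · simp at h

theorem step_lt_one_of_neg {K : ℝ → ℝ} (hK : IsSurv K) {a : ℝ} (ha : a < 0) (t : ℝ) :
    stepS a K t < 1 := by
  have h0 : ∀ t, 0 ≤ K t := fun t => (hK.pos t).le
  obtain ⟨y0, hy0⟩ := exists_lt_one hK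
  -- choose x₀ ≥ 0 with t - a x₀ ≥ y0
  set x0 := max 0 ((y0 - t) / (-a)) with hx0
  have hx0nn : 0 ≤ x0 := le_max_left _ _
  have hy : y0 ≤ t - a * x0 := by
    have h1 : (y0 - t) / (-a) ≤ x0 := le_max_right _ _
    have h2 : y0 - t ≤ x0 * (-a) := (div_le_iff₀ (by linarith)).mp h1
    linarith
  have hKv : K (t - a * x0) < 1 := lt_of_le_of_lt (hK.anti hy) hy0
  rw [Helper9.stepS_split hK.cont.measurable h0 hK.le_one a t x0 hx0nn]
  -- first piece ≤ 1 - e^{-x0}
  have hexpI : IntegrableOn (fun x : ℝ => Real.exp (-x)) (Ioc 0 x0) :=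
    (integrableOn_exp_neg_Ioi 0).mono_set Ioc_subset_Ioi_self
  have hint1 : IntegrableOn (fun x => K (t - a * x) * Real.exp (-x)) (Ioc 0 x0) :=
    (Helper9.integrableOn_step hK.cont.measurable h0 hK.le_one a t).mono_set Ioc_subset_Ioi_self
  have h1 : ∫ x in Ioc (0:ℝ) x0, K (t - a * x) * Real.exp (-x) ≤ 1 - Real.exp (-x0) := by
    have h2 : ∫ x in Ioc (0:ℝ) x0, Real.exp (-x) = 1 - Real.exp (-x0) := by
      have h3 := setIntegral_union (Ioc_disjoint_Ioi (le_refl x0)) measurableSet_Ioi hexpI
        (integrableOn_exp_neg_Ioi x0)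
      rw [Ioc_union_Ioi_eq_Ioi hx0nn, integral_exp_neg_Ioi, integral_exp_neg_Ioi] at h3
      simp at h3
      linarith
    rw [← h2]
    refine setIntegral_mono_on hint1 hexpI measurableSet_Ioc (fun x _ => ?_)
    exact mul_le_of_le_one_left (Real.exp_pos _).le (hK.le_one _)
  -- second piece: stepS a K v ≤ K v when a < 0
  have h2 : stepS a K (t - a * x0) ≤ K (t - a * x0) := by
    set v := t - a * x0
    have hint := Helper9.integrableOn_step hK.cont.measurable h0 hK.le_one a v
    have hexp : IntegrableOn (fun x : ℝ => K v * Real.exp (-x)) (Ioi (0:ℝ)) :=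
      (integrableOn_exp_neg_Ioi 0).const_mul _
    have h3 : stepS a K v ≤ ∫ x in Ioi (0:ℝ), K v * Real.exp (-x) := by
      unfold stepS
      refine setIntegral_mono_on hint hexp measurableSet_Ioi (fun x hx => ?_)
      have hx0 : (0:ℝ) < x := hx
      have : v ≤ v - a * x := by nlinarith
      exact mul_le_mul_of_nonneg_right (hK.anti this) (Real.exp_pos _).le
    rw [integral_const_mul, integral_exp_neg_Ioi_zero, mul_one] at h3
    exact h3
  have he : 0 < Real.exp (-x0) := Real.exp_pos _
  nlinarith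

end Crest.Agent.Helper7
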