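import Crest.Agent.Helper7.S0423Defs

/-! Strict antitonicity of a kernel `K` in the class `IsSurv` with `K < 1` (package C1). -/

set_option autoImplicit false

namespace Crest.Agent.Helper7

open MeasureTheory Set

/-- An antitone log-concave kernel with integrable `K - ind0` and `K < 1` is strictly antitone. -/
theorem IsSurv.strictAnti {K : ℝ → ℝ} (hK : IsSurv K) (hlt : ∀ t, K t < 1) : StrictAnti K := by
  intro t1 t2 h12
  by_contra hcon
  push Not at hcon
  have heq : K t1 = K t2 := le_antisymm hcon (hK.anti h12.le)
  -- K is constant on `Iic t1`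
  have hconst : ∀ t, t < t1 → K t = K t1 := by
    intro t ht
    have hs := hK.logconc.slope_anti_adjacent (mem_univ t) (mem_univ t2) ht h12
    simp only [heq, sub_self, zero_div] at hs
    have h1 : Real.log (K t) ≤ Real.log (K t2) := by
      have hpos : 0 < t1 - t := by linarith
      have := (div_nonneg_iff.mp hs)
      rcases this with ⟨h, _⟩ | ⟨_, h⟩
      · linarith
      · linarith
    have h2 : K t ≤ K t2 := (Real.log_le_log_iff (hK.pos t) (hK.pos t2)).mp h1
    rw [heq]
    exact le_antisymm h2 (hK.anti (by linarith))
  -- then `K - ind0` is a nonzero constant on a left half line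
  set x := min t1 0 with hx
  have hint : IntegrableOn (fun _ : ℝ => K t1 - 1) (Iio x) := by
    refine (hK.integrable.integrableOn (s := Iio x)).congr_fun (fun t ht => ?_) measurableSet_Iio
    have ht1 : t < t1 := lt_of_lt_of_le ht (min_le_left _ _)
    have ht0 : t < 0 := lt_of_lt_of_le ht (min_le_right _ _)
    simp [ind0, ht0, hconst t ht1]
  rw [integrableOn_const_iff] at hint
  rcases hint with h | h
  · have h' : K t1 - 1 = 0 := by simpa using h
    have := hlt t1; linarith
  · simp at h

end Crest.Agent.Helper7
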